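import Vale.Agent.P088.H198.E.Defs

/-!
# P088, theorem E by compactness: rows

`E.RowFIN` from `BY.RowFIN` (base `σ`, tensors near `σ · 1`), the isotropic uniqueness, compactness
of bounded families of smooth functions and continuity of the energies.
-/

open MeasureTheory Set Filter Topology
open scoped ContDiff Matrix

noncomputable section

namespace Vale.Agent.P088.LR.E2

open Vale.Agent.P088.LR Vale.Agent.P088.LR.B Vale.Agent.P088.LR.CF Vale.Agent.P088.H639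
  Vale.Agent.P088.LR.E

variable {n : ℕ}

/-- (I1) isotropic boundary determination: `m = 0` from `E.RowCZ` (`t = 1`, `ε = 0`), `m ≥ 1` from the
energy estimate and `BX.RowCON` (`b = h · 1`, `b(ζ, conj ζ) = 2 h`). -/
def RowISB : Prop := ∀ {n : ℕ}, 3 ≤ n → ∀ ρ : V n → ℝ, Dom ρ → ∀ σ ψ : V n → ℝ, SmP σ → SmP ψ →
  (∀ x ∉ bal n, σ x = 1) → (∀ x ∉ bal n, ψ x = 1) → SE (Om ρ) (sc σ) (sc ψ) →
  ∀ m : ℕ, ∃ h : V n → ℝ, ContDiff ℝ ∞ h ∧ ∀ x, ψ x - σ x = ρ x ^ m * h x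

/-- (I2) isotropic uniqueness, from I1, extension by `σ` and `CD.RowSMD` with `t = 1`. -/
def RowISO : Prop := ∀ {n : ℕ}, 3 ≤ n → ∀ ρ : V n → ℝ, Dom ρ → (∀ x ∉ bal n, ρ x = -1) →
  ∀ σ ψ : V n → ℝ, SmP σ → SmP ψ → (∀ x ∉ bal n, σ x = 1) → (∀ x ∉ bal n, ψ x = 1) →
  SE (Om ρ) (sc σ) (sc ψ) → ∀ x, 0 ≤ ρ x → ψ x = σ x

/-- (AA) compactness in `C^∞`. -/
def RowAA : Prop := ∀ {n : ℕ}, 1 ≤ n → ∀ (B : ℕ → ℝ) (f : ℕ → V n → ℝ),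
  (∀ m, ContDiff ℝ ∞ (f m)) → (∀ m, ∀ x ∉ core n, f m x = 0) → (∀ m, Cb m B (f m)) →
  ∃ (φ : ℕ → ℕ) (g : V n → ℝ), StrictMono φ ∧ ContDiff ℝ ∞ g ∧ (∀ x ∉ core n, g x = 0) ∧
    ∀ (k : ℕ) (ε : ℝ), 0 < ε → ∃ M : ℕ, ∀ m ≥ M, Cl k ε (fun x => f (φ m) x - g x)

/-- (EC) continuity of the energies. -/
def RowEC : Prop := ∀ {n : ℕ} (Ω : Set (V n)), IsOpen Ω → Bornology.IsBounded Ω →
  ∀ (s₁ : MF n) (s : ℕ → MF n) (ψ : V n → ℝ) (μ : ℝ), (∀ m, SmM (s m)) → ContDiff ℝ ∞ ψ → 0 < μ →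
  (∀ x ∈ Ω, μ ≤ ψ x) →
  (∀ ε > 0, ∃ M : ℕ, ∀ m ≥ M, ∀ x ∈ Ω, ∀ i j, |s m x i j - sc ψ x i j| ≤ ε) →
  (∀ m, SE Ω s₁ (s m)) → SE Ω s₁ (sc ψ)

end Vale.Agent.P088.LR.E2
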