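import Vale.Agent.P088.H738.E2.Fin
import Vale.Agent.P088.H72.X.TopX
import Vale.Agent.P088.H72.X.TopC
import Vale.Agent.P088.H442.C.Fin
import Vale.Agent.P088.H442.E.AA
import Vale.Agent.P088.H292.EC
import Vale.Agent.P088.H924.ESc
import Vale.Agent.P088.H641.ISB
import Vale.Agent.P088.H900.ISO
import Vale.Agent.P088.H833.D.Top

/-!
# P088, theorem E: all rows plugged in
-/

open MeasureTheory Set
open scoped ContDiff Matrix

noncomputable section

namespace Vale.Agent.P088.LR.E2

open Vale.Agent.P088.LR Vale.Agent.P088.LR.B Vale.Agent.P088.LR.CF Vale.Agent.P088.H639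
  Vale.Agent.P088.LR.E

/-- Rigidity near every `σ · 1` on a smooth domain in the ball. -/
theorem rowBY : BY.RowFIN :=
  BY.finY H873.topo BY.rowBOR BY.rowPHI BY.rowNORM BX.map
    (H397.yinf H641.rowHAD (H109.bdY H639.rowCON) H873.topo) H292.ext
    (BY.rigC_of_top CC.rowTOP442)

/-- Isotropic uniqueness on a smooth domain in the ball. -/
theorem rowISO_all : E2.RowISO :=
  H900.iso (E.H641.rowISB H639.rowCON) H833.D.smd_all CC.H129.bac LR.weak H873.topo H292.ext

/-- Theorem E, tensor form. -/
theorem fin_all : E.RowFIN :=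
  finE rowBY rowISO_all H442.AA.rowAA H292.EC.ec H323.rowIN H873.topo

/-- **Theorem E**: semi-global uniqueness on every smooth bounded domain, no condition at the
boundary. -/
theorem finD_all : E.FinD := H924.ES.esc fin_all

end Vale.Agent.P088.LR.E2
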