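import Vale.Agent.P088.H738.E2.Defs
import Vale.Agent.P088.H738.DTop

/-!
# P088, theorem E by compactness: the assembly
-/

open MeasureTheory Set Filter Topology
open scoped ContDiff Matrix

noncomputable section

namespace Vale.Agent.P088.LR.E2

open Vale.Agent.P088.LR Vale.Agent.P088.LR.B Vale.Agent.P088.LR.CF Vale.Agent.P088.H639
  Vale.Agent.P088.LR.E Vale.Agent.P088.LR.CD.H738

variable {n : ℕ}

theorem cl_nn {F : Type*} [NormedAddCommGroup F] [NormedSpace ℝ F] {k : ℕ} {A : ℝ} {f : V n → F}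
    (h : Cl k A f) : 0 ≤ A :=
  (norm_nonneg _).trans (h 0 (Nat.zero_le _) 0)

theorem cl_mulR {k : ℕ} {A B : ℝ} {f g : V n → ℝ} (hf : ContDiff ℝ ∞ f) (hg : ContDiff ℝ ∞ g)
    (hA : Cl k A f) (hB : Cl k B g) : Cl k (2 ^ k * (A * B)) (fun x => f x * g x) := by
  intro l hl x
  have hA0 := cl_nn hA
  have hB0 := cl_nn hB
  have h1 := norm_iteratedFDeriv_mul_le (n := l) hf hg x (by exact_mod_cast le_top)
  refine h1.trans ?_
  calc ∑ i ∈ Finset.range (l + 1), (l.choose i : ℝ) * ‖iteratedFDeriv ℝ i f x‖ *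
        ‖iteratedFDeriv ℝ (l - i) g x‖
      ≤ ∑ i ∈ Finset.range (l + 1), (l.choose i : ℝ) * (A * B) := by
        refine Finset.sum_le_sum fun i hi => ?_
        have hi' : i ≤ l := by simpa [Nat.lt_succ_iff] using hi
        rw [mul_assoc]
        refine mul_le_mul_of_nonneg_left ?_ (by positivity)
        exact mul_le_mul (hA i (hi'.trans hl) x) (hB (l - i) (by omega) x) (norm_nonneg _) hA0
    _ = 2 ^ l * (A * B) := by
        rw [← Finset.sum_mul]
        congr 1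
        exact_mod_cast Nat.sum_range_choose l
    _ ≤ 2 ^ k * (A * B) := by
        refine mul_le_mul_of_nonneg_right ?_ (by positivity)
        exact pow_le_pow_right₀ (by norm_num) hl

/-- Energies only see the values in `Ω`. -/
theorem SE_congr {Ω : Set (V n)} (hO : MeasurableSet Ω) {s₁ s s' : MF n}
    (h : ∀ x ∈ Ω, s' x = s x) (hS : SE Ω s₁ s) : SE Ω s₁ s' := by
  intro f hf
  rw [hS f hf]
  have h1 : ∀ u : V n → ℝ, rb Ω s u u = rb Ω s' u u := by
    intro u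
    unfold rb
    refine setIntegral_congr_fun hO fun x hx => ?_
    simp only [h x hx]
  unfold En
  simp only [h1]

/-- A symmetric matrix near a positive multiple of `1` is positive. -/
theorem posDef_near {s : Matrix (Fin n) (Fin n) ℝ} (hs : s.IsSymm) {y ε : ℝ}
    (h : ∀ i j, |s i j - y * dl i j| ≤ ε) (hε : n * ε < y) : s.PosDef := by
  refine Matrix.PosDef.of_dotProduct_mulVec_pos ?_ fun b hb => ?_
  · rw [Matrix.IsHermitian, Matrix.conjTranspose_eq_transpose_of_trivial]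
    exact hs
  · have e : star b ⬝ᵥ s *ᵥ b = ∑ i, ∑ j, s i j * b i * b j := by
      simp only [dotProduct, Matrix.mulVec, Finset.mul_sum, star_trivial, Pi.star_apply]
      refine Finset.sum_congr rfl fun i _ => Finset.sum_congr rfl fun j _ => ?_
      ring
    rw [e]
    have hS : 0 < ∑ i, b i ^ 2 := by
      obtain ⟨i, hi⟩ := Function.ne_iff.1 hb
      have hi' : b i ≠ 0 := hi
      exact Finset.sum_pos' (fun i _ => sq_nonneg _) ⟨i, Finset.mem_univ _, by positivity⟩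
    have e1 : ∑ i, ∑ j, s i j * b i * b j =
        y * ∑ i, b i ^ 2 + ∑ i, ∑ j, (s i j - y * dl i j) * b i * b j := by
      have e2 : ∑ i, ∑ j, y * dl i j * b i * b j = y * ∑ i, b i ^ 2 := by
        rw [Finset.mul_sum]
        refine Finset.sum_congr rfl fun i _ => ?_
        rw [Finset.sum_eq_single i]
        · rw [dl, Matrix.one_apply_eq]; ring
        · intro j _ hj
          rw [dl, Matrix.one_apply_ne (Ne.symm hj)]; ring
        · intro h; exact absurd (Finset.mem_univ _) h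
      rw [← e2, ← Finset.sum_add_distrib]
      refine Finset.sum_congr rfl fun i _ => ?_
      rw [← Finset.sum_add_distrib]
      exact Finset.sum_congr rfl fun j _ => by ring
    have hε0 : 0 ≤ ε ∨ n = 0 := by
      rcases Nat.eq_zero_or_pos n with h0 | h0
      · exact Or.inr h0
      · exact Or.inl ((abs_nonneg _).trans (h ⟨0, h0⟩ ⟨0, h0⟩))
    have e3 : -(∑ i : Fin n, ∑ j : Fin n, ε * ((b i ^ 2 + b j ^ 2) / 2)) ≤
        ∑ i, ∑ j, (s i j - y * dl i j) * b i * b j := by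
      rw [← Finset.sum_neg_distrib]
      refine Finset.sum_le_sum fun i _ => ?_
      rw [← Finset.sum_neg_distrib]
      refine Finset.sum_le_sum fun j _ => ?_
      have h1 := h i j
      have h2 : |(s i j - y * dl i j) * b i * b j| ≤ ε * ((b i ^ 2 + b j ^ 2) / 2) := by
        rw [mul_assoc, abs_mul]
        have h3 : |b i * b j| ≤ (b i ^ 2 + b j ^ 2) / 2 := by
          rw [abs_le]
          constructor <;> nlinarith [sq_nonneg (b i + b j), sq_nonneg (b i - b j)]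
        exact mul_le_mul h1 h3 (abs_nonneg _) ((abs_nonneg _).trans h1)
      exact (abs_le.1 h2).1
    have e4 : ∑ i : Fin n, ∑ j : Fin n, ε * ((b i ^ 2 + b j ^ 2) / 2) =
        n * ε * ∑ i, b i ^ 2 := by
      have e5 : ∀ i : Fin n, ∑ j : Fin n, ε * ((b i ^ 2 + b j ^ 2) / 2) =
          ε * (n * b i ^ 2 + ∑ j, b j ^ 2) / 2 := by
        intro i
        rw [← Finset.mul_sum, ← Finset.sum_div, Finset.sum_add_distrib, Finset.sum_const,
          Finset.card_univ, Fintype.card_fin, nsmul_eq_mul]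
        ring
      simp only [e5]
      rw [← Finset.sum_div, ← Finset.mul_sum, Finset.sum_add_distrib, ← Finset.mul_sum,
        Finset.sum_const, Finset.card_univ, Fintype.card_fin, nsmul_eq_mul]
      ring
    rw [e1]
    rw [e4] at e3
    nlinarith

theorem cl_const {F : Type*} [NormedAddCommGroup F] [NormedSpace ℝ F] (k : ℕ) (c : F) :
    Cl k ‖c‖ (fun _ : V n => c) := by
  intro l hl x
  rcases Nat.eq_zero_or_pos l with h | h
  · subst h
    simp
  · rw [iteratedFDeriv_const_of_ne (by omega)]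
    simp

theorem cb_cl {B : ℕ → ℝ} {f : V n → ℝ} {k l : ℕ} (h : Cb k B f) (hl : l ≤ k) :
    Cl l (∑ i ∈ Finset.range (l + 1), |B i|) f := by
  intro i hi x
  refine (h i (hi.trans hl) x).trans ((le_abs_self _).trans ?_)
  exact Finset.single_le_sum (f := fun i => |B i|) (fun _ _ => abs_nonneg _)
    (Finset.mem_range.2 (by omega))

/-- The conclusion. -/
def Cc (ρ σ : V n → ℝ) (s : MF n) : Prop :=
  ∃ Φ Ψ : V n → V n, ContDiff ℝ ∞ Φ ∧ ContDiff ℝ ∞ Ψ ∧
    (∀ x, Ψ (Φ x) = x) ∧ (∀ y, Φ (Ψ y) = y) ∧ (∀ x, ρ x = 0 → Φ x = x) ∧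
    (∀ x, 0 < ρ (Φ x) ↔ 0 < ρ x) ∧ (∀ x, 0 < (Jm Φ x).det) ∧
    ∀ x, 0 ≤ ρ x → (Jm Φ x).det⁻¹ • (Jm Φ x * s x * (Jm Φ x)ᵀ) = sc σ (Φ x)

/-- **The assembly.** -/
theorem finE (hBY : BY.RowFIN) (hISO : RowISO) (hAA : RowAA) (hEC : RowEC) (hIN : CC.RowINC)
    (hT : RowTOPO) : E.RowFIN := by
  intro n hn ρ hρ hρb σ hσ hσ1 B
  obtain ⟨hO, hOc, hfr, hcl, hic, hde⟩ := hT ρ hρ
  have hcore : IsCompact (core n) := by
    have : core n = Set.Icc (fun _ => 1 / 4) (fun _ => 3 / 4) := by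
      ext x
      simp only [core, mem_ofPred_eq, Set.mem_Icc, Pi.le_def]
      exact ⟨fun h => ⟨fun j => (h j).1, fun j => (h j).2⟩, fun h j => ⟨h.1 j, h.2 j⟩⟩
    rw [this]
    exact isCompact_Icc
  have hbd : Bornology.IsBounded (Om ρ) := hcore.isBounded.subset hOc
  obtain ⟨kB, εB, hεB, hBY⟩ := hBY n hn ρ hρ hρb σ hσ hσ1
  -- lower bound of `σ`
  obtain ⟨μσ, hμσ, hσμ⟩ : ∃ μ : ℝ, 0 < μ ∧ ∀ x, μ ≤ σ x := by
    obtain ⟨μ, hμ, h⟩ := hcore.exists_forall_le' (f := σ) (a := 0)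
      hσ.1.continuous.continuousOn (fun x _ => hσ.2 x)
    refine ⟨min μ 1, lt_min hμ one_pos, fun x => ?_⟩
    by_cases hx : x ∈ core n
    · exact (min_le_left _ _).trans (h x hx)
    · rw [hσ1 x fun h => hx (bal_subset_core442 h)]
      exact min_le_right _ _
  by_contra hcon
  have hcon' : ∀ m : ℕ, ∃ (s : MF n) (ψ : V n → ℝ) (t : MF n),
      Nc m B (1 / ((m : ℝ) + 1)) s ψ t ∧ SE (Om ρ) (sc σ) s ∧ ¬ Cc ρ σ s := by
    intro m
    by_contra h
    apply hcon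
    refine ⟨m, 1 / ((m : ℝ) + 1), by positivity, fun s ψ t hN hS => ?_⟩
    by_contra h2
    exact h ⟨s, ψ, t, hN, hS, h2⟩
  choose s ψ t hN hS hC using hcon'
  -- the cut-off
  obtain ⟨χ, hχs, hχ0, hχ1, hχone, hχz⟩ : ∃ χ : V n → ℝ, ContDiff ℝ ∞ χ ∧ (∀ x, 0 ≤ χ x) ∧
      (∀ x, χ x ≤ 1) ∧ (∀ x, 0 ≤ ρ x → χ x = 1) ∧ ∀ x ∉ bal n, χ x = 0 := by
    refine ⟨fun x => Real.smoothTransition (3 * ρ x + 2),
      Real.smoothTransition.contDiff.comp ((contDiff_const.mul hρ.sm).add contDiff_const),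
      fun x => Real.smoothTransition.nonneg _, fun x => Real.smoothTransition.le_one _,
      fun x hx => Real.smoothTransition.one_of_one_le (by linarith), fun x hx =>
        Real.smoothTransition.zero_of_nonpos (by rw [hρb x hx]; norm_num)⟩
  choose X hX1 hXc using fun l => exists_cl hχs 0 hχz l
  have hχzc : ∀ x ∉ core n, χ x = 0 := fun x hx => hχz x fun h => hx (bal_subset_core442 h)
  obtain ⟨Y, hY⟩ : ∃ Y : ℕ → ℝ, ∀ l, Y l = ∑ i ∈ Finset.range (l + 1), |B i| + 1 :=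
    ⟨_, fun _ => rfl⟩
  have hY1 : ∀ l, 1 ≤ Y l := fun l => by
    have := Finset.sum_nonneg (fun i (_ : i ∈ Finset.range (l + 1)) => abs_nonneg (B i))
    rw [hY]; linarith
  have hsub : ∀ (c : ℝ) (_ : |c| ≤ 1) (h : V n → ℝ) (m l : ℕ), ContDiff ℝ ∞ h → Cb m B h →
      l ≤ m → Cl l (Y l) (fun x => h x - c) := by
    intro c hc h m l hh hb hl
    have h1 := cl_add hh contDiff_const (cb_cl hb hl) (cl_const l (-c))
    rw [hY]
    refine cl_mono (l := l) (a := ∑ i ∈ Finset.range (l + 1), |B i| + ‖-c‖) (f := _) ?_ le_rfl ?_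
    · exact h1
    · rw [norm_neg, Real.norm_eq_abs]; linarith
  have hcut : ∀ (c : ℝ) (_ : |c| ≤ 1) (h : V n → ℝ) (m l : ℕ), ContDiff ℝ ∞ h → Cb m B h →
      l ≤ m → Cl l (2 ^ l * (X l * Y l)) (fun x => χ x * (h x - c)) := by
    intro c hc h m l hh hb hl
    exact cl_mulR hχs (hh.sub contDiff_const) (hXc l) (hsub c hc h m l hh hb hl)
  obtain ⟨f, hf⟩ : ∃ f : ℕ → V n → ℝ, ∀ m x, f m x = χ x * (ψ m x - 1) := ⟨_, fun _ _ => rfl⟩
  have hfe : ∀ m, f m = fun x => χ x * (ψ m x - 1) := fun m => funext (hf m)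
  have hfs : ∀ m, ContDiff ℝ ∞ (f m) := fun m => by
    rw [hfe]; exact hχs.mul ((hN m).pψ.1.sub contDiff_const)
  have hfcl : ∀ m l, l ≤ m → Cl l (2 ^ l * (X l * Y l)) (f m) := fun m l hl => by
    rw [hfe]
    exact hcut 1 (by simp) (ψ m) m l (hN m).pψ.1 (hN m).bψ hl
  obtain ⟨φ, g, hφ, hgs, hg0, hgc⟩ := hAA (by omega) (fun l => 2 ^ l * (X l * Y l)) f hfs
    (fun m x hx => by rw [hf, hχzc x hx, zero_mul]) (fun m l hl x => hfcl m l hl l le_rfl x)
  have hφm : ∀ m, m ≤ φ m := fun m => hφ.le_apply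
  have hgu : ∀ ε > 0, ∃ M : ℕ, ∀ m ≥ M, ∀ x, |f (φ m) x - g x| ≤ ε := by
    intro ε hε
    obtain ⟨M, hM⟩ := hgc 0 ε hε
    refine ⟨M, fun m hm x => ?_⟩
    have h := hM m hm 0 le_rfl x
    rwa [norm_iteratedFDeriv_zero, Real.norm_eq_abs] at h
  have hB0 : 0 < B 0 := lt_of_lt_of_le (inv_pos.2 ((hN 0).pψ.2 0)) ((hN 0).iψ 0)
  have hψlo : ∀ m x, (B 0)⁻¹ ≤ ψ m x := fun m x =>
    (inv_le_comm₀ ((hN m).pψ.2 x) hB0).1 ((hN m).iψ x)
  have hψhi : ∀ m x, ψ m x ≤ B 0 := fun m x => by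
    have h := (hN m).bψ 0 (Nat.zero_le _) x
    rw [norm_iteratedFDeriv_zero, Real.norm_eq_abs] at h
    exact (le_abs_self _).trans h
  obtain ⟨μ, hμe⟩ : ∃ μ : ℝ, μ = min 1 (B 0)⁻¹ := ⟨_, rfl⟩
  have hμ : 0 < μ := hμe ▸ lt_min one_pos (inv_pos.2 hB0)
  have hμ1 : μ ≤ 1 := hμe ▸ min_le_left _ _
  have hμ2 : μ ≤ (B 0)⁻¹ := hμe ▸ min_le_right _ _
  have hflo : ∀ m x, μ ≤ 1 + f m x := by
    intro m x
    rw [hf]
    have h1 := hμ2.trans (hψlo m x)
    nlinarith [hχ0 x, hχ1 x, mul_nonneg (hχ0 x) (sub_nonneg.2 h1),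
      mul_nonneg (sub_nonneg.2 (hχ1 x)) (sub_nonneg.2 hμ1)]
  have hglo : ∀ x, μ ≤ 1 + g x := by
    intro x
    refine le_of_forall_pos_le_add fun ε hε => ?_
    obtain ⟨M, hM⟩ := hgu ε hε
    have h1 := (abs_le.1 (hM M le_rfl x)).2
    have h2 := hflo (φ M) x
    linarith
  have hg1 : ∀ x ∉ bal n, g x = 0 := by
    intro x hx
    refine abs_eq_zero.1 (le_antisymm ?_ (abs_nonneg _))
    refine le_of_forall_pos_le_add fun ε hε => ?_
    obtain ⟨M, hM⟩ := hgu ε hε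
    have h1 := hM M le_rfl x
    rw [hf, hχz x hx, zero_mul, zero_sub, abs_neg] at h1
    linarith
  obtain ⟨ψi, hψi⟩ : ∃ ψi : V n → ℝ, ∀ x, ψi x = 1 + g x := ⟨_, fun _ => rfl⟩
  have hψie : ψi = fun x => 1 + g x := funext hψi
  have hψiP : SmP ψi := ⟨by rw [hψie]; exact contDiff_const.add hgs, fun x => by
    rw [hψi]; exact lt_of_lt_of_le hμ (hglo x)⟩
  have hsm : ∀ m, SmM (s m) := fun m i j => by
    have h : (fun x => s m x i j) = fun x => ψ m x * t m x i j := by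
      funext x; rw [(hN m).eq x]; rfl
    rw [h]; exact (hN m).pψ.1.mul ((hN m).st i j)
  -- the energies of the limit
  have hSEi : SE (Om ρ) (sc σ) (sc ψi) := by
    refine hEC (Om ρ) hO hbd (sc σ) (fun m => s (φ m)) ψi μ (fun m => hsm _) hψiP.1 hμ
      (fun x _ => by rw [hψi]; exact hglo x) (fun ε hε => ?_) fun m => hS _
    obtain ⟨M1, hM1⟩ := hgu (ε / 2) (by positivity)
    obtain ⟨M2, hM2⟩ := exists_nat_gt (B 0 / (ε / 2))
    refine ⟨max M1 M2, fun m hm x hx i j => ?_⟩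
    have hx0 : 0 ≤ ρ x := (show 0 < ρ x from hx).le
    have h1 := hM1 m ((le_max_left _ _).trans hm) x
    rw [hf, hχone x hx0, one_mul] at h1
    have h2 := (hN (φ m)).nt i j x
    have h3 : B 0 * (1 / (((φ m : ℕ) : ℝ) + 1)) ≤ ε / 2 := by
      have h4 : (M2 : ℝ) ≤ ((φ m : ℕ) : ℝ) := by
        exact_mod_cast ((le_max_right _ _).trans hm).trans (hφm m)
      rw [mul_one_div, div_le_iff₀ (by positivity)]
      rw [div_lt_iff₀ (by positivity)] at hM2
      nlinarith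
    have h5 : s (φ m) x i j - sc ψi x i j = ψ (φ m) x * (t (φ m) x i j - dl i j) +
        (ψ (φ m) x - 1 - g x) * dl i j := by
      rw [(hN (φ m)).eq x]
      simp only [sc, Matrix.smul_apply, smul_eq_mul, hψi]
      ring
    have h6 : |ψ (φ m) x * (t (φ m) x i j - dl i j)| ≤ B 0 * (1 / (((φ m : ℕ) : ℝ) + 1)) := by
      rw [abs_mul, abs_of_pos ((hN (φ m)).pψ.2 x)]
      exact mul_le_mul (hψhi _ _) h2 (abs_nonneg _) hB0.le
    have h7 : |(ψ (φ m) x - 1 - g x) * dl i j| ≤ ε / 2 := by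
      rw [abs_mul]
      have h8 : |dl i j| ≤ 1 := by
        rw [dl, Matrix.one_apply]; split_ifs <;> simp
      calc _ ≤ ε / 2 * 1 := mul_le_mul h1 h8 (abs_nonneg _) (by positivity)
        _ = ε / 2 := mul_one _
    rw [h5]
    exact (abs_add_le _ _).trans (by linarith)
  have hψσ : ∀ x, 0 ≤ ρ x → ψi x = σ x := hISO hn ρ hρ hρb σ ψi hσ hψiP hσ1
    (fun x hx => by rw [hψi, hg1 x hx, add_zero]) hSEi
  -- the modified tensors
  obtain ⟨s', hs'⟩ : ∃ s' : ℕ → MF n, ∀ m x i j, s' m x i j = sc σ x i j +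
      ((1 + f m x) * (χ x * (t m x i j - dl i j)) + (f m x - g x) * dl i j) :=
    ⟨fun m x => Matrix.of fun i j => sc σ x i j +
      ((1 + f m x) * (χ x * (t m x i j - dl i j)) + (f m x - g x) * dl i j), fun _ _ _ _ => rfl⟩
  have hs'on : ∀ m x, 0 ≤ ρ x → s' m x = s m x := by
    intro m x hx
    ext i j
    have h1 : g x = σ x - 1 := by rw [← hψσ x hx, hψi]; ring
    rw [hs', hf, hχone x hx, (hN m).eq x, h1]
    simp only [sc, Matrix.smul_apply, smul_eq_mul]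
    ring
  have hτs : ∀ m i j, ContDiff ℝ ∞ (fun x => χ x * (t m x i j - dl i j)) := fun m i j =>
    hχs.mul (((hN m).st i j).sub contDiff_const)
  have hs'sm : ∀ m, SmM (s' m) := by
    intro m i j
    have h : (fun x => s' m x i j) = fun x => sc σ x i j +
      ((1 + f m x) * (χ x * (t m x i j - dl i j)) + (f m x - g x) * dl i j) :=
      funext fun x => hs' m x i j
    rw [h]
    exact ((hσ.1.mul contDiff_const).add (((contDiff_const.add (hfs m)).mul (hτs m i j)).add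
      (((hfs m).sub hgs).mul contDiff_const)))
  have hs'sy : ∀ m x, (s' m x).IsSymm := by
    intro m x
    ext i j
    rw [Matrix.transpose_apply, hs', hs', ((hN m).sy x).apply i j]
    have h1 : (dl i j : ℝ) = dl j i := by
      simp only [dl, Matrix.one_apply, eq_comm]
    have h2 : sc σ x i j = sc σ x j i := by
      simp only [sc, Matrix.smul_apply, smul_eq_mul]
      rw [show (1 : Matrix (Fin n) (Fin n) ℝ) i j = (1 : Matrix (Fin n) (Fin n) ℝ) j i from h1]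
    rw [h1, h2]
  obtain ⟨εs, hεse⟩ : ∃ ε : ℝ, ε = min εB (μσ / (2 * (n + 1))) := ⟨_, rfl⟩
  have hεs : 0 < εs := hεse ▸ lt_min hεB (by positivity)
  have hεs1 : εs ≤ εB := hεse ▸ min_le_left _ _
  have hεs2 : εs ≤ μσ / (2 * (n + 1)) := hεse ▸ min_le_right _ _
  -- constants
  obtain ⟨M0, hM0⟩ := interp hIN n kB
  obtain ⟨W, hW⟩ : ∃ W : ℝ, W = 2 ^ kB * (X kB * Y kB) := ⟨_, rfl⟩
  have hW0 : 0 ≤ W := by
    rw [hW]
    have h1 := hX1 kB
    have h2 := hY1 kB
    positivity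
  obtain ⟨A0, hA0⟩ : ∃ A : ℝ, A = 2 ^ kB := ⟨_, rfl⟩
  have hA0p : 0 < A0 := by rw [hA0]; positivity
  obtain ⟨τ, hτe⟩ : ∃ τ : ℝ, τ = εs / (2 * A0 * (1 + W)) := ⟨_, rfl⟩
  have hτ : 0 < τ := by rw [hτe]; positivity
  obtain ⟨ε3, hε3, hM0⟩ := hM0 (2 ^ M0 * (X M0 * Y M0)) (by
    have h1 := hX1 M0
    have h2 := hY1 M0
    have h3 : (1 : ℝ) ≤ 2 ^ M0 := one_le_pow₀ (by norm_num)
    have h4 : 1 ≤ X M0 * Y M0 := by nlinarith
    nlinarith) τ hτ
  obtain ⟨M1, hM1⟩ := hgc kB (εs / (2 * A0)) (by positivity)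
  obtain ⟨M3, hM3⟩ := exists_nat_one_div_lt hε3
  obtain ⟨m, hm⟩ : ∃ m, m = max (max M1 M3) (max M0 kB) := ⟨_, rfl⟩
  have m1 : M1 ≤ m := hm ▸ (le_max_left _ _).trans (le_max_left _ _)
  have m3 : M3 ≤ m := hm ▸ (le_max_right _ _).trans (le_max_left _ _)
  have m0 : M0 ≤ m := hm ▸ (le_max_left _ _).trans (le_max_right _ _)
  have mk : kB ≤ m := hm ▸ (le_max_right _ _).trans (le_max_right _ _)
  have mφ := hφm m
  have hdl : ∀ i j : Fin n, |(dl i j : ℝ)| ≤ 1 := fun i j => by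
    rw [dl, Matrix.one_apply]; split_ifs <;> simp
  have hτc : ∀ i j, Cl kB τ (fun x => χ x * (t (φ m) x i j - dl i j)) := by
    intro i j
    refine (cl_cx (hτs _ i j)).1 (hM0 _ (Complex.ofRealCLM.contDiff.comp (hτs (φ m) i j))
      (fun x hx => ?_) (fun x => ?_) ((cl_cx (hτs _ i j)).2 ?_))
    · show ((χ x * (t (φ m) x i j - dl i j) : ℝ) : ℂ) = 0
      rw [hχzc x hx, zero_mul]; simp
    · show ‖((χ x * (t (φ m) x i j - dl i j) : ℝ) : ℂ)‖ ≤ ε3
      rw [Complex.norm_real, Real.norm_eq_abs, abs_mul, abs_of_nonneg (hχ0 x)]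
      have h1 := (hN (φ m)).nt i j x
      have h2 : 1 / (((φ m : ℕ) : ℝ) + 1) ≤ 1 / ((M3 : ℝ) + 1) := by
        refine one_div_le_one_div_of_le (by positivity) ?_
        have : (M3 : ℝ) ≤ ((φ m : ℕ) : ℝ) := by exact_mod_cast m3.trans mφ
        linarith
      calc χ x * |t (φ m) x i j - dl i j| ≤ 1 * (1 / (((φ m : ℕ) : ℝ) + 1)) :=
            mul_le_mul (hχ1 x) h1 (abs_nonneg _) zero_le_one
        _ ≤ ε3 := by linarith
    · exact hcut (dl i j) (hdl i j) (fun x => t (φ m) x i j) (φ m) M0 ((hN (φ m)).st i j)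
        ((hN (φ m)).bt i j) (m0.trans mφ)
  have hcl' : ∀ i j, Cl kB εs (fun x => s' (φ m) x i j - sc σ x i j) := by
    intro i j
    have h1 : Cl kB (1 + W) (fun x => 1 + f (φ m) x) := by
      have h := cl_add (contDiff_const (c := (1 : ℝ))) (hfs (φ m)) (cl_const kB (1 : ℝ))
        (hfcl (φ m) kB (mk.trans mφ))
      rw [norm_one, ← hW] at h
      exact h
    have h2 := cl_mulR (contDiff_const.add (hfs (φ m))) (hτs (φ m) i j) h1 (hτc i j)
    have h3 := cl_mulR ((hfs (φ m)).sub hgs) contDiff_const (hM1 m m1) (cl_const kB (dl i j))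
    have h4 := cl_add ((contDiff_const.add (hfs (φ m))).mul (hτs (φ m) i j))
      (((hfs (φ m)).sub hgs).mul contDiff_const) h2 h3
    have h5 : (fun x => s' (φ m) x i j - sc σ x i j) = fun x =>
        (1 + f (φ m) x) * (χ x * (t (φ m) x i j - dl i j)) + (f (φ m) x - g x) * dl i j := by
      funext x
      rw [hs']
      ring
    rw [h5]
    refine cl_mono h4 le_rfl ?_
    rw [← hA0, hτe]
    have h6 : A0 * ((1 + W) * (εs / (2 * A0 * (1 + W)))) = εs / 2 := by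
      have : (1 + W) ≠ 0 := by positivity
      field_simp
    have h7 : A0 * (εs / (2 * A0) * ‖(dl i j : ℝ)‖) ≤ εs / 2 := by
      have h8 : ‖(dl i j : ℝ)‖ ≤ 1 := hdl i j
      calc A0 * (εs / (2 * A0) * ‖(dl i j : ℝ)‖) ≤ A0 * (εs / (2 * A0) * 1) := by gcongr
        _ = εs / 2 := by field_simp
    linarith
  have hpd : ∀ x, (s' (φ m) x).PosDef := by
    intro x
    refine posDef_near (hs'sy _ x) (y := σ x) (ε := εs) (fun i j => ?_) ?_
    · have h := hcl' i j 0 (Nat.zero_le _) x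
      rw [norm_iteratedFDeriv_zero, Real.norm_eq_abs] at h
      simpa [sc, dl] using h
    · have h1 : (n : ℝ) * εs ≤ n * (μσ / (2 * (n + 1))) := by gcongr
      have h2 : (n : ℝ) * (μσ / (2 * (n + 1))) < μσ := by
        rw [mul_div_assoc', div_lt_iff₀ (by positivity)]
        nlinarith
      linarith [hσμ x]
  obtain ⟨Φ, Ψ, a1, a2, a3, a4, a5, a6, a7, a8⟩ := hBY (s' (φ m)) (hs'sm _) hpd
    (fun i j => cl_mono (hcl' i j) le_rfl hεs1)
    (SE_congr hO.measurableSet (fun x hx => hs'on (φ m) x (le_of_lt hx)) (hS (φ m)))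
  refine hC (φ m) ⟨Φ, Ψ, a1, a2, a3, a4, a5, a6, a7, fun x hx => ?_⟩
  rw [← hs'on (φ m) x hx]
  exact a8 x hx

end Vale.Agent.P088.LR.E2
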